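import Vale.Agent.P240.Top8
import Vale.Agent.P240.WMap
import Vale.Agent.P240.Syl
import Vale.Agent.P240.UpW
import Vale.Agent.P240.CjBase

namespace Vale.Agent.Results.P240.AllOddPow

open Vale.Agent.P240 Matrix

theorem result (F : Type) [Field F] [Fintype F] (n : ℕ) (hn : Odd n) (h3 : 3 ≤ n)
    (hq : Odd (Fintype.card F)) (hqn : 4 * n + 15 ≤ Fintype.card F) :
    (∀ (H : Type) [Group H] [Finite H] (ι : Matrix.specialOrthogonalGroup (Fin n) F →* H),
      Function.Injective ι → InvIn ι.range →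
      WQD H ((commutator (Matrix.specialOrthogonalGroup (Fin n) F)).map ι) (n - 1)) ∧
    (∀ K : Subgroup (Matrix.SpecialLinearGroup (Fin n) F), HasOmega K → Ext0 K) ∧
    Full2 (⊤ : Subgroup (Matrix.SpecialLinearGroup (Fin n) F)) (fun k l => l * k.transpose = 1) ∧
    ∀ (E : Type) [Field E] [Finite E] [StarRing E] [Algebra F E],
      (∀ x : F, star (algebraMap F E x) = algebraMap F E x) → (∃ x : E, star x ≠ x) →
      (∀ K : Subgroup (Matrix.SpecialLinearGroup (Fin n) E),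
        (∀ g, g ∈ K ↔ g.1 ∈ Matrix.unitaryGroup (Fin n) E) →
          Ext0 K ∧ Full2 K fun k l => l * k.transpose = 1) ∧
      (∀ K : Subgroup (Matrix.SpecialLinearGroup (Fin n) E), HasOmega K →
        Full2 K (fun k l => l = k.map star) ∧ Full2 K fun k l => l * star k = 1) ∧
      Ext2 E n := by
  obtain ⟨a1, a2, -, a4⟩ := allodd_pf F n hn h3 hq hqn
  obtain ⟨b1, b2⟩ := full_pf jall_pf F n hn h3 hq hqn
  have up := @full2_of wmap_pf syl_pf up_pf cjbase_pf
  exact ⟨a1, a2, up _ _ b1, fun E _ _ _ _ hs hx =>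
    ⟨fun K hK => ⟨((a4 E hs hx).1 K hK).1, up _ _ ((b2 E hs hx).1 K hK)⟩,
      fun K hK => ⟨up _ _ ((b2 E hs hx).2 K hK).1, up _ _ ((b2 E hs hx).2 K hK).2⟩,
      (a4 E hs hx).2.2⟩⟩

end Vale.Agent.Results.P240.AllOddPow
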