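import Vale.Agent.P240.All3

namespace Vale.Agent.Results.P240.OddClassical

open Vale.Agent.P240

theorem result (F : Type) [Field F] [Fintype F] (n : ℕ) (hn : Odd n) (h3 : 3 ≤ n)
    (hq : Odd (Fintype.card F)) (hqn : 4 * n + 15 ≤ Fintype.card F) :
    (∀ (H : Type) [Group H] [Finite H] (ι : Matrix.specialOrthogonalGroup (Fin n) F →* H),
      Function.Injective ι → ι.range.Normal → Odd ι.range.index →
      WQD H ((commutator (Matrix.specialOrthogonalGroup (Fin n) F)).map ι) (n - 1)) ∧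
    ExtQD (⊤ : Subgroup (Matrix.SpecialLinearGroup (Fin n) F)) ∧
    ∀ (E : Type) [Field E] [Finite E] [StarRing E] [Algebra F E],
      (∀ x : F, star (algebraMap F E x) = algebraMap F E x) → (∃ x : E, star x ≠ x) →
      ∀ K : Subgroup (Matrix.SpecialLinearGroup (Fin n) E),
        (∀ g, g ∈ K ↔ g.1 ∈ Matrix.unitaryGroup (Fin n) E) → ExtQD K :=
  ⟨fun H _ _ ι => orth_pf F n hn h3 hq (by omega) H ι, lin_of all_pf F n hn h3 hq hqn,
    fun E _ _ _ _ => uni_of all_pf F n hn h3 hq hqn E⟩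

end Vale.Agent.Results.P240.OddClassical
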