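import Vale.Agent.P240.Top
import Vale.Agent.P240.Rank
import Vale.Agent.P240.Alt
import Vale.Agent.P240.Sum
import Vale.Agent.P240.Circ
import Vale.Agent.P240.Ext
import Vale.Agent.P240.Count
import Vale.Agent.P240.Mem
import Vale.Agent.P240.Simp
import Vale.Agent.P240.Sep
import Vale.Agent.P240.Comm
import Vale.Agent.P240.Cyc2
import Vale.Agent.P240.ProdA
import Vale.Agent.P240.ProdS
import Vale.Agent.P240.ProdP
import Vale.Agent.P240.Inh
import Vale.Agent.P240.WRank

namespace Vale.Agent.Results.P240.OrthWreath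

open Vale.Agent.P240

theorem result (F : Type) [Field F] [Fintype F] (n : ℕ) (hn : Odd n) (h3 : 3 ≤ n)
    (hq : Odd (Fintype.card F)) (hqn : 2 * n + 3 ≤ Fintype.card F)
    (H : Type) [Group H] [Finite H] (ι : Matrix.specialOrthogonalGroup (Fin n) F →* H)
    (hι : Function.Injective ι) (hN : ι.range.Normal) (ho : Odd ι.range.index)
    (t : ℕ) (ht : 1 ≤ t) (G : Subgroup ((Fin t → H) ⋊[mulAutArrow] Equiv.Perm (Fin t)))
    (hG : ∀ f : Fin t → H,
      (∀ i, f i ∈ (commutator (Matrix.specialOrthogonalGroup (Fin n) F)).map ι) →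
        SemidirectProduct.inl f ∈ G) :
    HasRank G 2 (t * (n - 1)) ∧ HomologyNe G 2 (t * (n - 1) - 1) :=
  top_of rank_pf alt_pf sum_pf (count_pf (ext_pf circ_pf)) (simp_pf (mem_pf sum_pf))
    (sep_pf sum_pf (mem_pf sum_pf)) (comm_pf sum_pf) cyc2_pf prodA_pf prodS_pf
    (prodP_pf prodS_pf) inh_pf wrank_pf F n hn h3 hq hqn H ι hι hN ho t ht G hG

end Vale.Agent.Results.P240.OrthWreath
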